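import Vale.Agent.P252.R.Spec

/-!
# Interface of part F4 (no wedge): cells of an approximant
-/

open scoped ContDiff Topology
open Filter MeasureTheory

namespace Vale.Agent.P252.R

/-- The cell `lo * a ≤ ξ ≤ hi * a` where `ξ` runs over `u` and the coordinates `x_i`, `i < k`. -/
def cell {n : ℕ} (k : ℕ) (Ω : Set (En n)) (u : En n → ℝ) (lo hi : ℝ) (a : Fin n → ℝ) (az : ℝ) :
    Set (En n) :=
  {x | x ∈ Ω ∧ lo * az ≤ u x ∧ u x ≤ hi * az ∧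
    ∀ i : Fin n, i.val < k → lo * a i ≤ x i ∧ x i ≤ hi * a i}

/-- The two cell estimates at the scale `(a, az)`. -/
structure CellAt (n k : ℕ) (Ω : Set (En n)) (u : En n → ℝ) (C c τ T : ℝ) (a : Fin n → ℝ)
    (az : ℝ) : Prop where
  cptE : IsCompact (cell k Ω u 1 2 a az)
  posE : ∀ x ∈ cell k Ω u 1 2 a az, 0 < Bf k u x
  err : ∫ x in cell k Ω u 1 2 a az, Bf k u x ^ (-((n : ℝ) - 2) / 2) * Real.sqrt (dt u x) *
    (ip u x (gr u x) (gr u x) / az ^ 2 +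
      ∑ i : Fin n, if i.val < k then (hess u x)⁻¹ i i / a i ^ 2 else 0) ≤ C
  cptM : IsCompact (cell k Ω u τ T a az)
  posM : ∀ x ∈ cell k Ω u τ T a az, 0 < Bf k u x
  main : c ≤ ∫ x in cell k Ω u τ T a az, Bf k u x ^ (-(n : ℝ) / 2) * Real.sqrt (dt u x)

/-- Approximants of a wedge satisfy the cell estimates at any finite set of scales. -/
def Stmt_cells (n k : ℕ) : Prop := ∀ K, Wedge n k K → P1 n k → P2 n k →
  ∃ C c τ T : ℝ, 0 < C ∧ 0 < c ∧ 0 < τ ∧ τ ≤ 1 ∧ 1 ≤ T ∧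
    ∀ A : Finset ((Fin n → ℝ) × ℝ), (∀ a ∈ A, (∀ i, 0 < a.1 i) ∧ 0 < a.2) →
      ∃ (Ω : Set (En n)) (u : En n → ℝ), AMC Ω u ∧ ∀ a ∈ A, CellAt n k Ω u C c τ T a.1 a.2

/-- Counting: the cell estimates contradict (star). -/
def Stmt_count (n k : ℕ) : Prop := 1 ≤ k → k ≤ n → Stmt_star n k → ∀ C c τ T : ℝ, 0 < C → 0 < c →
  0 < τ → τ ≤ 1 → 1 ≤ T →
    (∀ A : Finset ((Fin n → ℝ) × ℝ), (∀ a ∈ A, (∀ i, 0 < a.1 i) ∧ 0 < a.2) →
      ∃ (Ω : Set (En n)) (u : En n → ℝ), AMC Ω u ∧ ∀ a ∈ A, CellAt n k Ω u C c τ T a.1 a.2) →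
    False

end Vale.Agent.P252.R
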