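import Vale.Agent.P252.H674.Cells
import Vale.Agent.P252.H392.Geo
import Vale.Agent.P252.H888.Star2
import Vale.Agent.P252.H338.IBP

/-!
# Part F4: algebra, cut-off and regularity
-/

open scoped ContDiff Topology
open Filter MeasureTheory

namespace Vale.Agent.P252.H674

open Vale.Agent.P252.R

variable {n : ℕ}

/-! ### The quadratic form `ip` -/

theorem ip_nonneg {u : En n → ℝ} {x : En n} (hp : (hess u x).PosDef) (a : Fin n → ℝ) :
    0 ≤ ip u x a a := C.ip_self_nonneg hp a

theorem ip_add_le {u : En n → ℝ} {x : En n} (hp : (hess u x).PosDef) (a b : Fin n → ℝ) :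
    ip u x (a + b) (a + b) ≤ 2 * ip u x a a + 2 * ip u x b b := by
  have h1 := ip_nonneg hp (a - b)
  have h2 : ip u x (a + b) (a + b) + ip u x (a - b) (a - b)
      = 2 * ip u x a a + 2 * ip u x b b := by
    simp only [ip, Finset.mul_sum, ← Finset.sum_add_distrib]
    refine Finset.sum_congr rfl fun i _ => Finset.sum_congr rfl fun j _ => ?_
    simp only [Pi.add_apply, Pi.sub_apply]
    ring
  linarith

theorem ip_smul_smul {u : En n → ℝ} {x : En n} (c : ℝ) (a : Fin n → ℝ) :
    ip u x (c • a) (c • a) = c ^ 2 * ip u x a a := by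
  simp only [ip, Finset.mul_sum]
  refine Finset.sum_congr rfl fun i _ => Finset.sum_congr rfl fun j _ => ?_
  simp only [Pi.smul_apply, smul_eq_mul]
  ring

theorem inv_diag_nonneg {u : En n → ℝ} {x : En n} (hp : (hess u x).PosDef) (i : Fin n) :
    0 ≤ (hess u x)⁻¹ i i := by
  have h := ip_nonneg hp (Pi.single i 1)
  have h2 : ip u x (Pi.single i 1) (Pi.single i 1) = (hess u x)⁻¹ i i := by
    unfold ip
    rw [Finset.sum_eq_single i]
    · rw [Finset.sum_eq_single i]
      · simp
      · intro j _ hj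
        simp [hj]
      · simp
    · intro j _ hj
      refine Finset.sum_eq_zero fun l _ => ?_
      simp [hj]
    · simp
  rwa [h2] at h

theorem ip_le_diag {u : En n → ℝ} {x : En n} (hp : (hess u x).PosDef) (w : Fin n → ℝ) :
    ip u x w w ≤ n * ∑ i, (hess u x)⁻¹ i i * w i ^ 2 := by
  set H := (hess u x)⁻¹ with hH
  have key : ∀ i j : Fin n, H i j * w i * w j + H j i * w j * w i ≤
      H i i * w i ^ 2 + H j j * w j ^ 2 := by
    intro i j
    by_cases hij : i = j
    · subst hij
      have := ip_nonneg hp (Pi.single i 1)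
      nlinarith [sq_nonneg (w i)]
    · have h := ip_nonneg hp (Pi.single i (w i) - Pi.single j (w j))
      have h2 : ip u x (Pi.single i (w i) - Pi.single j (w j))
          (Pi.single i (w i) - Pi.single j (w j)) =
          H i i * w i ^ 2 + H j j * w j ^ 2 - (H i j * w i * w j + H j i * w j * w i) := by
        have e1 : ∀ v : Fin n → ℝ, ∀ c : ℝ, ∀ m : Fin n,
            ip u x (Pi.single m c) v = ∑ l, H m l * c * v l := by
          intro v c m
          unfold ip
          rw [Finset.sum_eq_single m]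
          · simp [hH]
          · intro l _ hl
            refine Finset.sum_eq_zero fun l' _ => ?_
            simp [hl]
          · simp
        have e2 : ∀ a b v : Fin n → ℝ, ip u x (a - b) v = ip u x a v - ip u x b v := by
          intro a b v
          simp only [ip, ← Finset.sum_sub_distrib, Pi.sub_apply]
          refine Finset.sum_congr rfl fun i _ => Finset.sum_congr rfl fun j _ => by ring
        have e3 : ∀ (m m' : Fin n) (c c' : ℝ),
            ∑ l, H m l * c * (Pi.single m' c' : Fin n → ℝ) l = H m m' * c * c' := by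
          intro m m' c c'
          rw [Finset.sum_eq_single m']
          · simp
          · intro l _ hl
            simp [hl]
          · simp
        rw [e2, e1, e1]
        simp only [Pi.sub_apply, mul_sub, Finset.sum_sub_distrib, e3]
        ring
      rw [h2] at h
      linarith
  have h1 : ∑ i, ∑ j, (H i j * w i * w j + H j i * w j * w i) ≤
      ∑ i, ∑ j, (H i i * w i ^ 2 + H j j * w j ^ 2) :=
    Finset.sum_le_sum fun i _ => Finset.sum_le_sum fun j _ => key i j
  have h2 : ∑ i, ∑ j, (H i j * w i * w j + H j i * w j * w i) = 2 * ip u x w w := by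
    simp only [Finset.sum_add_distrib]
    rw [Finset.sum_comm (f := fun i j => H j i * w j * w i)]
    simp only [ip]
    ring
  have h3 : ∑ i : Fin n, ∑ j : Fin n, (H i i * w i ^ 2 + H j j * w j ^ 2) =
      2 * (n * ∑ i, H i i * w i ^ 2) := by
    simp only [Finset.sum_add_distrib, Finset.sum_const, Finset.card_univ, Fintype.card_fin,
      nsmul_eq_mul, ← Finset.mul_sum]
    ring
  rw [h2, h3] at h1
  linarith

/-! ### The cut-off function of one variable -/

theorem exists_phi (n : ℕ) : ∃ (Φ : ℝ → ℝ) (C : ℝ), ContDiff ℝ ∞ Φ ∧ 0 < C ∧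
    (∀ s, 0 ≤ s → s ≤ (n : ℝ) + 1 → Φ s = 1) ∧ (∀ s, 2 * ((n : ℝ) + 1) ≤ s → Φ s = 0) ∧
    ∀ s, 0 ≤ s → deriv Φ s ^ 2 * s ≤ C := by
  have hn : (0 : ℝ) < (n : ℝ) + 1 := by positivity
  let f : ContDiffBump (0 : ℝ) := ⟨(n : ℝ) + 1, 2 * ((n : ℝ) + 1), hn, by linarith⟩
  have hf : ContDiff ℝ ∞ (f : ℝ → ℝ) := f.contDiff
  have hcont : Continuous fun s : ℝ => deriv (f : ℝ → ℝ) s ^ 2 * s := by
    have h1 : Continuous (deriv (f : ℝ → ℝ)) := hf.continuous_deriv (by simp)
    exact (h1.pow 2).mul continuous_id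
  have hcs : HasCompactSupport fun s : ℝ => deriv (f : ℝ → ℝ) s ^ 2 * s := by
    have h1 : HasCompactSupport (deriv (f : ℝ → ℝ)) := f.hasCompactSupport.deriv
    have h2 : HasCompactSupport fun s : ℝ => deriv (f : ℝ → ℝ) s ^ 2 :=
      h1.comp_left (g := fun t : ℝ => t ^ 2) (by simp)
    exact h2.mul_right
  obtain ⟨C, hC⟩ := hcs.exists_bound_of_continuous hcont
  refine ⟨f, |C| + 1, hf, by positivity, ?_, ?_, ?_⟩
  · intro s h0 h1
    refine f.one_of_mem_closedBall ?_
    simp only [Metric.mem_closedBall, Real.dist_eq, sub_zero]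
    rw [abs_of_nonneg h0]
    exact h1
  · intro s hs
    refine f.zero_of_le_dist ?_
    simp only [Real.dist_eq, sub_zero]
    exact hs.trans (le_abs_self s)
  · intro s _
    have := hC s
    rw [Real.norm_eq_abs] at this
    linarith [le_abs_self (deriv (f : ℝ → ℝ) s ^ 2 * s), le_abs_self C]

/-! ### Regularity of the ingredients -/

theorem sc_cda {Ω : Set (En n)} {u : En n → ℝ} (h : SC Ω u) {x : En n} (hx : x ∈ Ω) :
    ContDiffAt ℝ ∞ u x := h.sm.contDiffAt (h.op.mem_nhds hx)

theorem sc_det_pos {Ω : Set (En n)} {u : En n → ℝ} (h : SC Ω u) {x : En n} (hx : x ∈ Ω) :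
    0 < (hess u x).det := (h.pos x hx).det_pos

theorem contDiffAt_RBf {k : ℕ} {u : En n → ℝ} {x : En n} (hu : ContDiffAt ℝ ∞ u x) :
    ContDiffAt ℝ ∞ (Bf k u) x := by
  unfold Bf
  refine hu.sub (ContDiffAt.sum fun i _ => ?_)
  split_ifs with h
  · exact (H888.contDiffAt_coord i x).mul (H888.contDiffAt_pd hu i)
  · exact contDiffAt_const

theorem contAt_wt {k : ℕ} {Ω : Set (En n)} {u : En n → ℝ} (h : SC Ω u) {x : En n} (hx : x ∈ Ω)
    (hB : 0 < Bf k u x) (p : ℝ) :
    ContinuousAt (fun y => Bf k u y ^ p * Real.sqrt (dt u y)) x := by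
  refine ContinuousAt.mul ?_ ?_
  · exact (contDiffAt_RBf (sc_cda h hx)).continuousAt.rpow_const (Or.inl hB.ne')
  · exact (H888.contDiffAt_hess_det (sc_cda h hx)).continuousAt.sqrt

theorem contAt_err {k : ℕ} {Ω : Set (En n)} {u : En n → ℝ} (h : SC Ω u) {x : En n} (hx : x ∈ Ω)
    (a : Fin n → ℝ) (az : ℝ) :
    ContinuousAt (fun y => ip u y (gr u y) (gr u y) / az ^ 2 +
      ∑ i : Fin n, if i.val < k then (hess u y)⁻¹ i i / a i ^ 2 else 0) x := by
  have h1 : ContinuousAt (fun y => ip u y (gr u y) (gr u y)) x := by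
    have := H888.contDiffAt_ip (u := u) (x := x) (ξ := fun y => gr u y) (ζ := fun y => gr u y)
      (sc_cda h hx) (sc_det_pos h hx).ne' (fun i => H888.contDiffAt_pd (sc_cda h hx) i)
      (fun i => H888.contDiffAt_pd (sc_cda h hx) i)
    exact this.continuousAt
  refine (h1.div_const _).add ?_
  refine tendsto_finsetSum _ fun i _ => ?_
  split_ifs with hi
  · exact ((H888.contDiffAt_hess_inv (sc_cda h hx) (sc_det_pos h hx).ne' i i).continuousAt).div_const _
  · exact continuousAt_const

end Vale.Agent.P252.H674
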