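import Vale.Agent.P252.H674.Count1

/-!
# Part F4: the log cut-off
-/

open scoped ContDiff Topology
open Filter MeasureTheory

namespace Vale.Agent.P252.H674

open Vale.Agent.P252.R

variable {n : ℕ}

/-- `(log u)² + ∑_{i<k} (log x_i)²`. -/
noncomputable def FL (k : ℕ) (u : En n → ℝ) (x : En n) : ℝ :=
  Real.log (u x) ^ 2 + ∑ i : Fin n, if i.val < k then Real.log (x i) ^ 2 else 0

/-- The part of `Ω` where `u` and the arm coordinates are positive. -/
def OmP (k : ℕ) (Ω : Set (En n)) (u : En n → ℝ) : Set (En n) :=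
  {x | x ∈ Ω ∧ 0 < u x ∧ ∀ i : Fin n, i.val < k → 0 < x i}

theorem isOpen_OmP {k : ℕ} {Ω : Set (En n)} {u : En n → ℝ} (h : SC Ω u) :
    IsOpen (OmP k Ω u) := by
  have h1 : IsOpen {x | x ∈ Ω ∧ 0 < u x} := by
    have := h.sm.continuousOn.isOpen_inter_preimage h.op (isOpen_Ioi (a := (0 : ℝ)))
    exact this
  have h2 : IsOpen (⋂ i : Fin n, {x : En n | i.val < k → 0 < x i}) := by
    refine isOpen_iInter_of_finite fun i => ?_
    by_cases hi : i.val < k
    · simp only [hi, true_imp_iff]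
      exact isOpen_lt continuous_const (EuclideanSpace.proj i : En n →L[ℝ] ℝ).continuous
    · simp [hi]
  have h3 : OmP k Ω u = {x | x ∈ Ω ∧ 0 < u x} ∩ (⋂ i : Fin n, {x : En n | i.val < k → 0 < x i}) := by
    ext x
    simp only [OmP, Set.mem_ofPred_eq, Set.mem_inter_iff, Set.mem_iInter]
    tauto
  rw [h3]
  exact h1.inter h2

theorem contDiffAt_FL {k : ℕ} {u : En n → ℝ} {x : En n} (hu : ContDiffAt ℝ ∞ u x)
    (h0 : 0 < u x) (h1 : ∀ i : Fin n, i.val < k → 0 < x i) : ContDiffAt ℝ ∞ (FL k u) x := by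
  unfold FL
  refine ((hu.log h0.ne').pow 2).add (ContDiffAt.sum fun i _ => ?_)
  split_ifs with h
  · exact ((H888.contDiffAt_coord i x).log (h1 i h).ne').pow 2
  · exact contDiffAt_const

theorem pd_FL {k : ℕ} {u : En n → ℝ} {x : En n} (hu : ContDiffAt ℝ ∞ u x)
    (h0 : 0 < u x) (h1 : ∀ i : Fin n, i.val < k → 0 < x i) (l : Fin n) :
    pd l (FL k u) x = 2 * Real.log (u x) / u x * pd l u x +
      (if l.val < k then 2 * Real.log (x l) / x l else 0) := by
  have hd : HasFDerivAt u (fderiv ℝ u x) x := (hu.differentiableAt (by simp)).hasFDerivAt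
  have e1 : HasFDerivAt (fun y => Real.log (u y) ^ 2)
      ((2 * Real.log (u x) / u x) • fderiv ℝ u x) x := by
    have := (hd.log h0.ne').pow 2
    have e : (2 * Real.log (u x) / u x) • fderiv ℝ u x =
        (2 • Real.log (u x) ^ (2 - 1)) • (u x)⁻¹ • fderiv ℝ u x := by
      ext v
      simp only [smul_apply, smul_eq_mul, nsmul_eq_mul]
      push_cast
      ring
    rw [e]
    exact this
  have e2 : ∀ i : Fin n, HasFDerivAt (fun y : En n => if i.val < k then Real.log (y i) ^ 2 else 0)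
      ((if i.val < k then 2 * Real.log (x i) / x i else 0) •
        (EuclideanSpace.proj i : En n →L[ℝ] ℝ)) x := by
    intro i
    by_cases hi : i.val < k
    · simp only [hi, if_true]
      have hp : HasFDerivAt (fun y : En n => y i) (EuclideanSpace.proj i : En n →L[ℝ] ℝ) x :=
        (EuclideanSpace.proj i : En n →L[ℝ] ℝ).hasFDerivAt
      have := (hp.log (h1 i hi).ne').pow 2
      have e : (2 * Real.log (x i) / x i) • (EuclideanSpace.proj i : En n →L[ℝ] ℝ) =
          (2 • Real.log (x i) ^ (2 - 1)) • (x i)⁻¹ • (EuclideanSpace.proj i : En n →L[ℝ] ℝ) := by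
        ext v
        simp only [smul_apply, smul_eq_mul, nsmul_eq_mul]
        push_cast
        ring
      rw [e]
      exact this
    · simp only [hi, if_false, zero_smul]
      exact hasFDerivAt_const _ _
  have e3 := e1.add (HasFDerivAt.fun_sum (u := Finset.univ) fun i _ => e2 i)
  have e4 : fderiv ℝ (FL k u) x = _ := e3.fderiv
  unfold pd
  rw [e4]
  simp only [add_apply, smul_apply, sum_apply, smul_eq_mul]
  congr 1
  rw [Finset.sum_eq_single l]
  · simp
  · intro j _ hj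
    simp [hj]
  · simp

/-- The log cut-off. -/
noncomputable def etaF (k : ℕ) (Ω : Set (En n)) (u : En n → ℝ) (Φ : ℝ → ℝ) (N : ℝ) : En n → ℝ :=
  (OmP k Ω u).indicator fun x => Φ (FL k u x / N ^ 2)

theorem pd_etaF {k : ℕ} {Ω : Set (En n)} {u : En n → ℝ} (h : SC Ω u) {Φ : ℝ → ℝ}
    (hΦ : ContDiff ℝ ∞ Φ) (N : ℝ) {x : En n} (hx : x ∈ OmP k Ω u) (l : Fin n) :
    pd l (etaF k Ω u Φ N) x = deriv Φ (FL k u x / N ^ 2) / N ^ 2 * pd l (FL k u) x := by
  have hev : etaF k Ω u Φ N =ᶠ[𝓝 x] fun y => Φ (FL k u y / N ^ 2) := by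
    filter_upwards [(isOpen_OmP h).mem_nhds hx] with y hy
    simp [etaF, Set.indicator, hy]
  have hF : DifferentiableAt ℝ (FL k u) x :=
    (contDiffAt_FL (sc_cda h hx.1) hx.2.1 hx.2.2).differentiableAt (by simp)
  have hd : HasDerivAt Φ (deriv Φ (FL k u x / N ^ 2)) (FL k u x / N ^ 2) :=
    (hΦ.differentiable (by simp) _).hasDerivAt
  have h1 : HasFDerivAt (fun y => FL k u y / N ^ 2) ((N ^ 2)⁻¹ • fderiv ℝ (FL k u) x) x := by
    simpa [div_eq_mul_inv, mul_comm] using hF.hasFDerivAt.const_mul ((N ^ 2)⁻¹)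
  have h2 := hd.comp_hasFDerivAt x h1
  unfold pd
  have h3 : fderiv ℝ (fun y => Φ (FL k u y / N ^ 2)) x = _ := h2.fderiv
  rw [hev.fderiv_eq, h3]
  simp only [smul_apply, smul_eq_mul]
  ring

/-- Gradient estimate of the cut-off. -/
theorem ip_etaF_le {k : ℕ} (hn : 1 ≤ n) {Ω : Set (En n)} {u : En n → ℝ} (h : SC Ω u) {Φ : ℝ → ℝ}
    {C1 : ℝ} (hΦ : ContDiff ℝ ∞ Φ) (hC : ∀ s, 0 ≤ s → deriv Φ s ^ 2 * s ≤ C1) {N : ℝ} (hN : 0 < N)
    {x : En n} (hx : x ∈ OmP k Ω u) {a : Fin n → ℝ} {az : ℝ} (haz : 0 < az)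
    (ha : ∀ i, 0 < a i) (hux : az ≤ u x) (hxi : ∀ i : Fin n, i.val < k → a i ≤ x i) :
    ip u x (gr (etaF k Ω u Φ N) x) (gr (etaF k Ω u Φ N) x) ≤
      8 * C1 * n / N ^ 2 * (ip u x (gr u x) (gr u x) / az ^ 2 +
        ∑ i : Fin n, if i.val < k then (hess u x)⁻¹ i i / a i ^ 2 else 0) := by
  set s := FL k u x / N ^ 2 with hs
  set d := deriv Φ s / N ^ 2 with hd
  have hp := h.pos x hx.1
  have hFnn : 0 ≤ FL k u x := by
    unfold FL
    refine add_nonneg (sq_nonneg _) (Finset.sum_nonneg fun i _ => ?_)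
    split_ifs
    · exact sq_nonneg _
    · exact le_rfl
  have hs0 : 0 ≤ s := div_nonneg hFnn (by positivity)
  have hC1 : 0 ≤ C1 := by have := hC 0 le_rfl; simpa using this
  -- each squared logarithm is at most F
  have hlu : Real.log (u x) ^ 2 ≤ FL k u x := by
    unfold FL
    refine le_add_of_nonneg_right (Finset.sum_nonneg fun i _ => ?_)
    split_ifs
    · exact sq_nonneg _
    · exact le_rfl
  have hli : ∀ i : Fin n, i.val < k → Real.log (x i) ^ 2 ≤ FL k u x := by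
    intro i hi
    unfold FL
    have h1 : Real.log (x i) ^ 2 ≤ ∑ i : Fin n, if i.val < k then Real.log (x i) ^ 2 else 0 := by
      have := Finset.single_le_sum (f := fun i : Fin n =>
        if i.val < k then Real.log (x i) ^ 2 else 0) (s := Finset.univ) (fun j _ => by
          show 0 ≤ if j.val < k then Real.log (x j) ^ 2 else 0
          split_ifs
          · exact sq_nonneg _
          · exact le_rfl) (Finset.mem_univ i)
      simpa [hi] using this
    have := sq_nonneg (Real.log (u x))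
    linarith
  -- the coefficient bound
  have hcoef : ∀ (L ξ b : ℝ), L ^ 2 ≤ FL k u x → 0 < b → b ≤ ξ →
      (d * (2 * L / ξ)) ^ 2 ≤ 4 * C1 / N ^ 2 / b ^ 2 := by
    intro L ξ b hL hb hbξ
    have hξ : 0 < ξ := hb.trans_le hbξ
    have e1 : (d * (2 * L / ξ)) ^ 2 = 4 * (deriv Φ s ^ 2 * (L ^ 2 / N ^ 2)) / N ^ 2 / ξ ^ 2 := by
      rw [hd]
      field_simp
      try ring
    have e2 : deriv Φ s ^ 2 * (L ^ 2 / N ^ 2) ≤ C1 := by
      refine le_trans ?_ (hC s hs0)
      refine mul_le_mul_of_nonneg_left ?_ (sq_nonneg _)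
      rw [hs]
      exact div_le_div_of_nonneg_right hL (by positivity)
    rw [e1]
    have e3 : 4 * (deriv Φ s ^ 2 * (L ^ 2 / N ^ 2)) / N ^ 2 ≤ 4 * C1 / N ^ 2 :=
      div_le_div_of_nonneg_right (by linarith) (by positivity)
    have e4 : 0 ≤ 4 * C1 / N ^ 2 := by positivity
    calc 4 * (deriv Φ s ^ 2 * (L ^ 2 / N ^ 2)) / N ^ 2 / ξ ^ 2
        ≤ 4 * C1 / N ^ 2 / ξ ^ 2 := div_le_div_of_nonneg_right e3 (by positivity)
      _ ≤ 4 * C1 / N ^ 2 / b ^ 2 := by
          refine div_le_div_of_nonneg_left e4 (by positivity) ?_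
          exact pow_le_pow_left₀ hb.le hbξ 2
  set w : Fin n → ℝ := fun l => if l.val < k then d * (2 * Real.log (x l) / x l) else 0 with hw
  have hgr : gr (etaF k Ω u Φ N) x = (d * (2 * Real.log (u x) / u x)) • gr u x + w := by
    funext l
    simp only [gr, Pi.add_apply, Pi.smul_apply, smul_eq_mul, hw]
    rw [pd_etaF h hΦ N hx l, pd_FL (sc_cda h hx.1) hx.2.1 hx.2.2 l, ← hs]
    by_cases hl : l.val < k
    · simp only [hl, if_true]; ring
    · simp only [hl, if_false]; ring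
  rw [hgr]
  have h1 := ip_add_le hp ((d * (2 * Real.log (u x) / u x)) • gr u x) w
  rw [ip_smul_smul] at h1
  have h2 := ip_le_diag hp w
  have hip := ip_nonneg hp (gr u x)
  have h3 : (d * (2 * Real.log (u x) / u x)) ^ 2 * ip u x (gr u x) (gr u x) ≤
      4 * C1 / N ^ 2 / az ^ 2 * ip u x (gr u x) (gr u x) :=
    mul_le_mul_of_nonneg_right (hcoef _ _ _ hlu haz hux) hip
  have h4 : ∑ i, (hess u x)⁻¹ i i * w i ^ 2 ≤
      4 * C1 / N ^ 2 * ∑ i : Fin n, if i.val < k then (hess u x)⁻¹ i i / a i ^ 2 else 0 := by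
    rw [Finset.mul_sum]
    refine Finset.sum_le_sum fun i _ => ?_
    by_cases hi : i.val < k
    · simp only [hw, hi, if_true]
      have e1 := hcoef _ _ _ (hli i hi) (ha i) (hxi i hi)
      have e2 := inv_diag_nonneg hp i
      calc (hess u x)⁻¹ i i * (d * (2 * Real.log (x i) / x i)) ^ 2
          ≤ (hess u x)⁻¹ i i * (4 * C1 / N ^ 2 / a i ^ 2) := mul_le_mul_of_nonneg_left e1 e2
        _ = 4 * C1 / N ^ 2 * ((hess u x)⁻¹ i i / a i ^ 2) := by ring
    · simp [hw, hi]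
  have hn' : (1 : ℝ) ≤ n := by exact_mod_cast hn
  set P := ip u x (gr u x) (gr u x) with hP
  set Q := ∑ i : Fin n, if i.val < k then (hess u x)⁻¹ i i / a i ^ 2 else 0 with hQ
  have hQ0 : 0 ≤ Q := by
    rw [hQ]
    refine Finset.sum_nonneg fun i _ => ?_
    split_ifs
    · exact div_nonneg (inv_diag_nonneg hp i) (by positivity)
    · exact le_rfl
  calc ip u x ((d * (2 * Real.log (u x) / u x)) • gr u x + w)
        ((d * (2 * Real.log (u x) / u x)) • gr u x + w)
      ≤ 2 * (4 * C1 / N ^ 2 / az ^ 2 * P) + 2 * (n * (4 * C1 / N ^ 2 * Q)) := by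
        have h5 : (n : ℝ) * ∑ i, (hess u x)⁻¹ i i * w i ^ 2 ≤ n * (4 * C1 / N ^ 2 * Q) :=
          mul_le_mul_of_nonneg_left h4 (by positivity)
        linarith
    _ ≤ 8 * C1 * n / N ^ 2 * (P / az ^ 2 + Q) := by
        have e1 : 0 ≤ 8 * C1 / N ^ 2 * (P / az ^ 2) := by positivity
        have e2 : 8 * C1 / N ^ 2 * (P / az ^ 2) * 1 ≤ 8 * C1 / N ^ 2 * (P / az ^ 2) * n :=
          mul_le_mul_of_nonneg_left hn' e1
        have e3 : 2 * (4 * C1 / N ^ 2 / az ^ 2 * P) = 8 * C1 / N ^ 2 * (P / az ^ 2) := by ring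
        have e4 : 8 * C1 * n / N ^ 2 * (P / az ^ 2 + Q) =
          8 * C1 / N ^ 2 * (P / az ^ 2) * n + 2 * (n * (4 * C1 / N ^ 2 * Q)) := by ring
        rw [e3, e4]
        linarith

end Vale.Agent.P252.H674
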