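import Vale.Agent.P252.H674.Count2

/-!
# Part F4: scales and cells
-/

open scoped ContDiff Topology
open Filter MeasureTheory

namespace Vale.Agent.P252.H674

open Vale.Agent.P252.R

variable {n : ℕ}

/-- Index set of the scales. -/
noncomputable def idx (n k : ℕ) (L : ℕ) : Finset ((Fin n → ℤ) × ℤ) :=
  (Fintype.piFinset fun i : Fin n => if i.val < k then Finset.Icc (-(L : ℤ)) L else {0}) ×ˢ
    Finset.Icc (-(L : ℤ)) L

theorem card_idx {n k : ℕ} (hk : k ≤ n) (L : ℕ) : (idx n k L).card = (2 * L + 1) ^ (k + 1) := by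
  unfold idx
  rw [Finset.card_product, Fintype.card_piFinset]
  have h1 : (Finset.Icc (-(L : ℤ)) L).card = 2 * L + 1 := by
    rw [Int.card_Icc]
    omega
  have h2 : ∀ i : Fin n, (if i.val < k then Finset.Icc (-(L : ℤ)) L else {0}).card =
      if i.val < k then 2 * L + 1 else 1 := by
    intro i
    split_ifs
    · exact h1
    · simp
  simp only [h2, h1]
  rw [Finset.prod_ite, Finset.prod_const, Finset.prod_const, one_pow, mul_one,
    Fin.card_filter_val_lt, min_eq_right hk, pow_succ]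

theorem mem_idx {n k L : ℕ} {j : (Fin n → ℤ) × ℤ} : j ∈ idx n k L ↔
    (∀ i : Fin n, (i.val < k → -(L : ℤ) ≤ j.1 i ∧ j.1 i ≤ L) ∧ (¬ i.val < k → j.1 i = 0)) ∧
      -(L : ℤ) ≤ j.2 ∧ j.2 ≤ L := by
  unfold idx
  rw [Finset.mem_product, Fintype.mem_piFinset, Finset.mem_Icc]
  refine and_congr_left fun _ => forall_congr' fun i => ?_
  by_cases h : i.val < k <;> simp [h, Finset.mem_Icc]

/-- The scale attached to an index. -/
noncomputable def scl (b : ℝ) (j : (Fin n → ℤ) × ℤ) : (Fin n → ℝ) × ℝ :=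
  (fun i => b ^ j.1 i, b ^ j.2)

theorem scl_pos {b : ℝ} (hb : 0 < b) (j : (Fin n → ℤ) × ℤ) :
    (∀ i, 0 < (scl b j).1 i) ∧ 0 < (scl b j).2 :=
  ⟨fun _ => zpow_pos hb _, zpow_pos hb _⟩

/-- Dyadic covering of one coordinate. -/
theorem exists_zpow {ξ B : ℝ} {L : ℕ} (hξ : 0 < ξ) (hB : |Real.log ξ| ≤ B)
    (hL : B < L * Real.log 2) : ∃ j : ℤ, -(L : ℤ) ≤ j ∧ j ≤ L ∧ 2 ^ j ≤ ξ ∧ ξ ≤ 2 * 2 ^ j := by
  obtain ⟨j, h1, h2⟩ := exists_mem_Ico_zpow hξ (one_lt_two : (1 : ℝ) < 2)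
  have hl2 : 0 < Real.log 2 := Real.log_pos one_lt_two
  have e1 : (j : ℝ) * Real.log 2 ≤ Real.log ξ := by
    rw [← Real.log_zpow]
    exact Real.log_le_log (zpow_pos two_pos _) h1
  have e2 : Real.log ξ < ((j : ℝ) + 1) * Real.log 2 := by
    have : Real.log ξ < Real.log ((2 : ℝ) ^ (j + 1)) := Real.log_lt_log hξ h2
    rw [Real.log_zpow] at this
    push_cast at this
    exact this
  obtain ⟨e3, e4⟩ := abs_le.mp hB
  have e5 : (j : ℝ) < L := by
    by_contra hc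
    push Not at hc
    have := mul_le_mul_of_nonneg_right hc hl2.le
    linarith
  have e6 : -((L : ℝ) + 1) < j := by
    by_contra hc
    push Not at hc
    have : ((j : ℝ) + 1) * Real.log 2 ≤ (-(L : ℝ)) * Real.log 2 :=
      mul_le_mul_of_nonneg_right (by linarith) hl2.le
    linarith
  have e7 : j < L := by exact_mod_cast e5
  have e8 : -((L : ℤ) + 1) < j := by exact_mod_cast e6
  refine ⟨j, by omega, e7.le, h1, ?_⟩
  have : (2 : ℝ) ^ (j + 1) = 2 * 2 ^ j := by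
    rw [zpow_add_one₀ (two_ne_zero)]
    ring
  linarith

theorem FL_nonneg {k : ℕ} (u : En n → ℝ) (x : En n) : 0 ≤ FL k u x := by
  unfold FL
  refine add_nonneg (sq_nonneg _) (Finset.sum_nonneg fun i _ => ?_)
  split_ifs
  · exact sq_nonneg _
  · exact le_rfl

theorem log_u_le {k : ℕ} (u : En n → ℝ) (x : En n) : Real.log (u x) ^ 2 ≤ FL k u x := by
  unfold FL
  refine le_add_of_nonneg_right (Finset.sum_nonneg fun i _ => ?_)
  split_ifs
  · exact sq_nonneg _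
  · exact le_rfl

theorem log_x_le {k : ℕ} (u : En n → ℝ) (x : En n) (i : Fin n) (hi : i.val < k) :
    Real.log (x i) ^ 2 ≤ FL k u x := by
  unfold FL
  have h1 : Real.log (x i) ^ 2 ≤ ∑ i : Fin n, if i.val < k then Real.log (x i) ^ 2 else 0 := by
    have := Finset.single_le_sum (f := fun i : Fin n =>
      if i.val < k then Real.log (x i) ^ 2 else 0) (s := Finset.univ) (fun j _ => by
        show 0 ≤ if j.val < k then Real.log (x j) ^ 2 else 0
        split_ifs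
        · exact sq_nonneg _
        · exact le_rfl) (Finset.mem_univ i)
    simpa [hi] using this
  have := sq_nonneg (Real.log (u x))
  linarith

/-- Where the cut-off does not vanish, the point lies in one of the dyadic cells. -/
theorem exists_cell {k L : ℕ} {Ω : Set (En n)} {u : En n → ℝ} {B : ℝ} (hB : 0 ≤ B) {x : En n}
    (hx : x ∈ OmP k Ω u) (hF : FL k u x ≤ B ^ 2) (hL : B < L * Real.log 2) :
    ∃ j ∈ idx n k L, x ∈ cell k Ω u 1 2 (scl 2 j).1 (scl 2 j).2 := by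
  have key : ∀ ξ : ℝ, 0 < ξ → Real.log ξ ^ 2 ≤ FL k u x →
      ∃ j : ℤ, -(L : ℤ) ≤ j ∧ j ≤ L ∧ 2 ^ j ≤ ξ ∧ ξ ≤ 2 * 2 ^ j := by
    intro ξ hξ h
    exact exists_zpow hξ (abs_le_of_sq_le_sq (h.trans hF) hB) hL
  obtain ⟨jz, z1, z2, z3, z4⟩ := key (u x) hx.2.1 (log_u_le u x)
  have hi : ∀ i : Fin n, ∃ j : ℤ, (i.val < k → -(L : ℤ) ≤ j ∧ j ≤ L ∧ 2 ^ j ≤ x i ∧
      x i ≤ 2 * 2 ^ j) ∧ (¬ i.val < k → j = 0) := by
    intro i
    by_cases h : i.val < k
    · obtain ⟨j, h1⟩ := key (x i) (hx.2.2 i h) (log_x_le u x i h)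
      exact ⟨j, fun _ => h1, fun h' => absurd h h'⟩
    · exact ⟨0, fun h' => absurd h' h, fun _ => rfl⟩
  choose j hj1 hj2 using hi
  refine ⟨(j, jz), ?_, hx.1, ?_, ?_, ?_⟩
  · rw [mem_idx]
    exact ⟨fun i => ⟨fun h => ⟨(hj1 i h).1, (hj1 i h).2.1⟩, hj2 i⟩, z1, z2⟩
  · simpa [scl] using z3
  · simpa [scl] using z4
  · intro i h
    obtain ⟨_, _, h3, h4⟩ := hj1 i h
    simp only [scl]
    exact ⟨by linarith, h4⟩

/-- Two sided bound of the logarithm in a main cell. -/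
theorem abs_log_le {b τ T ξ : ℝ} {M : ℕ} {j : ℤ} (hb : 1 < b) (hτ : 1 ≤ b * τ) (hT : T ≤ b)
    (hτ0 : 0 < τ) (h1 : -(M : ℤ) ≤ j) (h2 : j ≤ M) (h3 : τ * b ^ j ≤ ξ) (h4 : ξ ≤ T * b ^ j) :
    |Real.log ξ| ≤ ((M : ℝ) + 1) * Real.log b := by
  have hb0 : 0 < b := by linarith
  have hlb : 0 < Real.log b := Real.log_pos hb
  have hpos : 0 < b ^ j := zpow_pos hb0 _
  have hξ : 0 < ξ := (mul_pos hτ0 hpos).trans_le h3
  have e1 : ξ ≤ b ^ (j + 1) := by
    rw [zpow_add_one₀ hb0.ne', mul_comm]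
    exact h4.trans (mul_le_mul_of_nonneg_right hT hpos.le)
  have e2 : b ^ (j - 1) ≤ ξ := by
    refine le_trans ?_ h3
    rw [zpow_sub_one₀ hb0.ne', mul_comm]
    refine mul_le_mul_of_nonneg_right ?_ hpos.le
    rw [inv_le_iff_one_le_mul₀ hb0, mul_comm]
    exact hτ
  have e3 := Real.log_le_log hξ e1
  have e4 := Real.log_le_log (zpow_pos hb0 _) e2
  rw [Real.log_zpow] at e3 e4
  push_cast at e3 e4
  have h1' : -(M : ℝ) ≤ j := by exact_mod_cast h1
  have h2' : (j : ℝ) ≤ M := by exact_mod_cast h2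
  rw [abs_le]
  constructor
  · have : -(((M : ℝ) + 1) * Real.log b) ≤ ((j : ℝ) - 1) * Real.log b := by
      rw [← neg_mul]
      exact mul_le_mul_of_nonneg_right (by linarith) hlb.le
    linarith
  · have : ((j : ℝ) + 1) * Real.log b ≤ ((M : ℝ) + 1) * Real.log b :=
      mul_le_mul_of_nonneg_right (by linarith) hlb.le
    linarith

/-- In the main cells the function `FL` is at most `(n+1) N²`. -/
theorem FL_le_of_cell {k M : ℕ} {Ω : Set (En n)} {u : En n → ℝ} {b τ T : ℝ}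
    (hb : 1 < b) (hτ : 1 ≤ b * τ) (hT : T ≤ b) (hτ0 : 0 < τ) {j : (Fin n → ℤ) × ℤ}
    (hj : j ∈ idx n k M) {x : En n} (hx : x ∈ cell k Ω u τ T (scl b j).1 (scl b j).2) :
    x ∈ OmP k Ω u ∧ FL k u x ≤ ((n : ℝ) + 1) * (((M : ℝ) + 1) * Real.log b) ^ 2 := by
  rw [mem_idx] at hj
  obtain ⟨hj1, hj2, hj3⟩ := hj
  obtain ⟨x1, x2, x3, x4⟩ := hx
  simp only [scl] at x2 x3 x4
  have hb0 : 0 < b := by linarith
  refine ⟨⟨x1, (mul_pos hτ0 (zpow_pos hb0 _)).trans_le x2,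
    fun i hi => (mul_pos hτ0 (zpow_pos hb0 _)).trans_le (x4 i hi).1⟩, ?_⟩
  have key : ∀ (ξ : ℝ) (m : ℤ), -(M : ℤ) ≤ m → m ≤ M → τ * b ^ m ≤ ξ → ξ ≤ T * b ^ m →
      Real.log ξ ^ 2 ≤ (((M : ℝ) + 1) * Real.log b) ^ 2 := by
    intro ξ m h1 h2 h3 h4
    exact sq_le_sq' (by have := (abs_le.mp (abs_log_le hb hτ hT hτ0 h1 h2 h3 h4)).1; linarith)
      (abs_le.mp (abs_log_le hb hτ hT hτ0 h1 h2 h3 h4)).2
  unfold FL
  have h1 := key _ _ hj2 hj3 x2 x3
  have h2 : (∑ i : Fin n, if i.val < k then Real.log (x i) ^ 2 else 0) ≤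
      ∑ _i : Fin n, (((M : ℝ) + 1) * Real.log b) ^ 2 := by
    refine Finset.sum_le_sum fun i _ => ?_
    by_cases hi : i.val < k
    · simp only [hi, if_true]
      exact key _ _ ((hj1 i).1 hi).1 ((hj1 i).1 hi).2 (x4 i hi).1 (x4 i hi).2
    · simp only [hi, if_false]
      exact sq_nonneg _
  simp only [Finset.sum_const, Finset.card_univ, Fintype.card_fin, nsmul_eq_mul] at h2
  linarith

/-- The main cells are disjoint. -/
theorem disjoint_cells {k M : ℕ} {Ω : Set (En n)} {u : En n → ℝ} {b τ T : ℝ}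
    (hb : 1 < b) (hT : T < b * τ) {j j' : (Fin n → ℤ) × ℤ}
    (hj : j ∈ idx n k M) (hj' : j' ∈ idx n k M) (hne : j ≠ j') (hτ0 : 0 < τ) :
    Disjoint (cell k Ω u τ T (scl b j).1 (scl b j).2)
      (cell k Ω u τ T (scl b j').1 (scl b j').2) := by
  have hb0 : 0 < b := by linarith
  have key : ∀ (ξ : ℝ) (m m' : ℤ), m < m' → ξ ≤ T * b ^ m → τ * b ^ m' ≤ ξ → False := by
    intro ξ m m' hm h1 h2
    have e1 : b ^ (m + 1) ≤ b ^ m' := zpow_le_zpow_right₀ hb.le (by omega)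
    have e2 : T * b ^ m < τ * b ^ (m + 1) := by
      rw [zpow_add_one₀ hb0.ne']
      have := mul_lt_mul_of_pos_right hT (zpow_pos hb0 m)
      calc T * b ^ m < b * τ * b ^ m := this
        _ = τ * (b ^ m * b) := by ring
    have e3 := mul_le_mul_of_nonneg_left e1 hτ0.le
    linarith
  have key2 : ∀ (ξ : ℝ) (m m' : ℤ), m ≠ m' → τ * b ^ m ≤ ξ → ξ ≤ T * b ^ m →
      τ * b ^ m' ≤ ξ → ξ ≤ T * b ^ m' → False := by
    intro ξ m m' hm h1 h2 h3 h4
    rcases lt_or_gt_of_ne hm with h | h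
    · exact key ξ m m' h h2 h3
    · exact key ξ m' m h h4 h1
  rw [Set.disjoint_left]
  intro x hx hx'
  rw [mem_idx] at hj hj'
  obtain ⟨hj1, hj2, hj3⟩ := hj
  obtain ⟨hj1', hj2', hj3'⟩ := hj'
  obtain ⟨x1, x2, x3, x4⟩ := hx
  obtain ⟨x1', x2', x3', x4'⟩ := hx'
  simp only [scl] at x2 x3 x4 x2' x3' x4'
  by_cases hz : j.2 = j'.2
  · have : j.1 ≠ j'.1 := fun h => hne (Prod.ext h hz)
    obtain ⟨i, hi⟩ := Function.ne_iff.mp this
    by_cases hik : i.val < k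
    · exact key2 _ _ _ hi (x4 i hik).1 (x4 i hik).2 (x4' i hik).1 (x4' i hik).2
    · exact hi (by rw [(hj1 i).2 hik, (hj1' i).2 hik])
  · exact key2 _ _ _ hz x2 x3 x2' x3'

end Vale.Agent.P252.H674
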