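import Vale.Agent.P252.H674.Count3

/-!
# Part F4: counting cells contradicts (star)
-/

open scoped ContDiff Topology
open Filter MeasureTheory

namespace Vale.Agent.P252.H674

open Vale.Agent.P252.R

variable {n : ℕ}

/-- Lower bound of the left side of (star). -/
theorem lower_bound {k M : ℕ} {Ω : Set (En n)} {u η : En n → ℝ} {C c τ T b : ℝ}
    (hu : SC Ω u) (hb : 1 < b) (hT : T < b * τ) (hτ0 : 0 < τ)
    (hM : ∀ j ∈ idx n k M, CellAt n k Ω u C c τ T (scl b j).1 (scl b j).2)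
    (hηc : Continuous η) {Z : Set (En n)} (hZ : IsCompact Z) (hZΩ : Z ⊆ Ω)
    (hZB : ∀ x ∈ Z, 0 < Bf k u x) (hη0 : ∀ x, x ∉ Z → η x = 0)
    (hη1 : ∀ j ∈ idx n k M, ∀ x ∈ cell k Ω u τ T (scl b j).1 (scl b j).2, η x = 1) :
    (idx n k M).card * c ≤
      ∫ x, η x ^ 2 * (Bf k u x ^ (-(n : ℝ) / 2) * Real.sqrt (dt u x)) := by
  set f1 : En n → ℝ := fun x => η x ^ 2 * (Bf k u x ^ (-(n : ℝ) / 2) * Real.sqrt (dt u x)) with hf1
  have hsupp : Function.support f1 ⊆ Z := by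
    intro x hx
    by_contra hxZ
    exact hx (by simp [hf1, hη0 x hxZ])
  have hcont : ContinuousOn f1 Z := by
    intro x hx
    refine ContinuousAt.continuousWithinAt ?_
    exact (hηc.continuousAt.pow 2).mul (contAt_wt hu (hZΩ hx) (hZB x hx) _)
  have hint : Integrable f1 :=
    (integrableOn_iff_integrable_of_support_subset hsupp).1 (hcont.integrableOn_compact hZ)
  have hnn : ∀ x, 0 ≤ f1 x := by
    intro x
    by_cases hx : x ∈ Z
    · exact mul_nonneg (sq_nonneg _) (mul_nonneg (Real.rpow_nonneg (hZB x hx).le _)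
        (Real.sqrt_nonneg _))
    · simp [hf1, hη0 x hx]
  have hmeas : ∀ j ∈ idx n k M, MeasurableSet (cell k Ω u τ T (scl b j).1 (scl b j).2) :=
    fun j hj => (hM j hj).cptM.isClosed.measurableSet
  have h1 : (idx n k M).card * c ≤
      ∑ j ∈ idx n k M, ∫ x in cell k Ω u τ T (scl b j).1 (scl b j).2, f1 x := by
    rw [← nsmul_eq_mul]
    refine Finset.card_nsmul_le_sum _ _ _ fun j hj => ?_
    refine (hM j hj).main.trans (le_of_eq ?_)
    refine setIntegral_congr_fun (hmeas j hj) fun x hx => ?_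
    simp [hf1, hη1 j hj x hx]
  refine h1.trans ?_
  rw [← integral_biUnion_finset _ hmeas _ fun j _ => hint.integrableOn]
  · exact setIntegral_le_integral hint (Filter.Eventually.of_forall hnn)
  · intro j hj j' hj' hne
    exact disjoint_cells hb hT hj hj' hne hτ0

/-- Upper bound of the right side of (star). -/
theorem upper_bound {k L : ℕ} {Ω : Set (En n)} {u η : En n → ℝ} {C c τ T K : ℝ}
    (hu : SC Ω u) (hK : 0 ≤ K)
    (hE : ∀ j ∈ idx n k L, CellAt n k Ω u C c τ T (scl 2 j).1 (scl 2 j).2)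
    (hη0 : ∀ x, (∀ j ∈ idx n k L, x ∉ cell k Ω u 1 2 (scl 2 j).1 (scl 2 j).2) → gr η x = 0)
    (hη1 : ∀ j ∈ idx n k L, ∀ x ∈ cell k Ω u 1 2 (scl 2 j).1 (scl 2 j).2,
      ip u x (gr η x) (gr η x) ≤ K * (ip u x (gr u x) (gr u x) / (scl 2 j).2 ^ 2 +
        ∑ i : Fin n, if i.val < k then (hess u x)⁻¹ i i / (scl 2 j).1 i ^ 2 else 0)) :
    ∫ x, Bf k u x ^ (-((n : ℝ) - 2) / 2) * Real.sqrt (dt u x) * ip u x (gr η x) (gr η x) ≤
      (idx n k L).card * (K * C) := by
  set h : ((Fin n → ℤ) × ℤ) → En n → ℝ := fun j x =>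
    Bf k u x ^ (-((n : ℝ) - 2) / 2) * Real.sqrt (dt u x) *
      (ip u x (gr u x) (gr u x) / (scl 2 j).2 ^ 2 +
        ∑ i : Fin n, if i.val < k then (hess u x)⁻¹ i i / (scl 2 j).1 i ^ 2 else 0) with hh
  set S : ((Fin n → ℤ) × ℤ) → Set (En n) := fun j =>
    cell k Ω u 1 2 (scl 2 j).1 (scl 2 j).2 with hS
  have hmeas : ∀ j ∈ idx n k L, MeasurableSet (S j) :=
    fun j hj => (hE j hj).cptE.isClosed.measurableSet
  have hSΩ : ∀ j, ∀ x ∈ S j, x ∈ Ω := fun j x hx => hx.1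
  have hint : ∀ j ∈ idx n k L, IntegrableOn (h j) (S j) := by
    intro j hj
    refine ContinuousOn.integrableOn_compact (hE j hj).cptE fun x hx => ?_
    exact ((contAt_wt hu (hSΩ j x hx) ((hE j hj).posE x hx) _).mul
      (contAt_err hu (hSΩ j x hx) _ _)).continuousWithinAt
  have hw : ∀ j ∈ idx n k L, ∀ x ∈ S j,
      0 ≤ Bf k u x ^ (-((n : ℝ) - 2) / 2) * Real.sqrt (dt u x) := fun j hj x hx =>
    mul_nonneg (Real.rpow_nonneg ((hE j hj).posE x hx).le _) (Real.sqrt_nonneg _)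
  have hhnn : ∀ j ∈ idx n k L, ∀ x ∈ S j, 0 ≤ h j x := by
    intro j hj x hx
    refine mul_nonneg (hw j hj x hx) (add_nonneg ?_ (Finset.sum_nonneg fun i _ => ?_))
    · exact div_nonneg (ip_nonneg (hu.pos x (hSΩ j x hx)) _) (sq_nonneg _)
    · split_ifs
      · exact div_nonneg (inv_diag_nonneg (hu.pos x (hSΩ j x hx)) i) (sq_nonneg _)
      · exact le_rfl
  have hind : ∀ j ∈ idx n k L, Integrable ((S j).indicator fun x => K * h j x) := fun j hj =>
    (integrable_indicator_iff (hmeas j hj)).2 ((hint j hj).const_mul K)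
  have hgz : ∀ x, (∀ j ∈ idx n k L, x ∉ S j) →
      Bf k u x ^ (-((n : ℝ) - 2) / 2) * Real.sqrt (dt u x) * ip u x (gr η x) (gr η x) = 0 := by
    intro x hx
    rw [hη0 x hx]
    simp [ip]
  have hle : ∀ x, Bf k u x ^ (-((n : ℝ) - 2) / 2) * Real.sqrt (dt u x) *
      ip u x (gr η x) (gr η x) ≤ ∑ j ∈ idx n k L, (S j).indicator (fun x => K * h j x) x := by
    intro x
    have hnn : ∀ j ∈ idx n k L, 0 ≤ (S j).indicator (fun x => K * h j x) x := by
      intro j hj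
      exact Set.indicator_apply_nonneg fun hx => mul_nonneg hK (hhnn j hj x hx)
    by_cases hx : ∃ j ∈ idx n k L, x ∈ S j
    · obtain ⟨j, hj, hxj⟩ := hx
      refine le_trans ?_ (Finset.single_le_sum hnn hj)
      rw [Set.indicator_of_mem hxj]
      have := mul_le_mul_of_nonneg_left (hη1 j hj x hxj) (hw j hj x hxj)
      refine this.trans (le_of_eq ?_)
      simp only [hh]
      ring
    · push Not at hx
      rw [hgz x hx]
      exact Finset.sum_nonneg hnn
  have hnn0 : ∀ x, 0 ≤ Bf k u x ^ (-((n : ℝ) - 2) / 2) * Real.sqrt (dt u x) *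
      ip u x (gr η x) (gr η x) := by
    intro x
    by_cases hx : ∃ j ∈ idx n k L, x ∈ S j
    · obtain ⟨j, hj, hxj⟩ := hx
      exact mul_nonneg (hw j hj x hxj) (ip_nonneg (hu.pos x (hSΩ j x hxj)) _)
    · push Not at hx
      rw [hgz x hx]
  calc ∫ x, Bf k u x ^ (-((n : ℝ) - 2) / 2) * Real.sqrt (dt u x) * ip u x (gr η x) (gr η x)
      ≤ ∫ x, ∑ j ∈ idx n k L, (S j).indicator (fun x => K * h j x) x :=
        integral_mono_of_nonneg (Filter.Eventually.of_forall hnn0)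
          (integrable_finsetSum _ hind) (Filter.Eventually.of_forall hle)
    _ = ∑ j ∈ idx n k L, ∫ x in S j, K * h j x := by
        rw [integral_finsetSum _ hind]
        exact Finset.sum_congr rfl fun j hj => integral_indicator (hmeas j hj)
    _ ≤ ∑ _j ∈ idx n k L, K * C := by
        refine Finset.sum_le_sum fun j hj => ?_
        rw [integral_const_mul]
        exact mul_le_mul_of_nonneg_left (hE j hj).err hK
    _ = (idx n k L).card * (K * C) := by
        rw [Finset.sum_const, nsmul_eq_mul]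

end Vale.Agent.P252.H674

namespace Vale.Agent.P252.R

open Vale.Agent.P252.H674

/-- Counting: the cell estimates contradict (star). -/
theorem count (n k : ℕ) : Stmt_count n k := by
  rintro hk1 hkn ⟨C0, hC0, hstar⟩ C c τ T hC hc hτ hτ1 hT H
  have hn1 : 1 ≤ n := hk1.trans hkn
  obtain ⟨Φ, C1, hΦ, hC1, hΦ1, hΦ0, hΦd⟩ := exists_phi n
  -- the ratio of the main scales
  set b : ℝ := T / τ + 3 with hb
  have hTτ : T ≤ T / τ := le_div_self (by linarith) hτ hτ1
  have hb1 : 1 < b := by rw [hb]; linarith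
  have hb0 : 0 < b := by linarith
  have hbτ : b * τ = T + 3 * τ := by rw [hb]; field_simp
  have hTb : T < b * τ := by rw [hbτ]; linarith
  have h1b : 1 ≤ b * τ := by rw [hbτ]; linarith
  have hTb' : T ≤ b := by rw [hb]; linarith
  have hlb : 1 ≤ Real.log b := by
    rw [Real.le_log_iff_exp_le hb0]
    have := Real.exp_one_lt_d9
    rw [hb]
    linarith
  set B0 : ℕ := ⌈Real.log b⌉₊ with hB0
  have hB0le : Real.log b ≤ B0 := Nat.le_ceil _
  have hB01 : 1 ≤ B0 := by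
    have : (1 : ℝ) ≤ B0 := hlb.trans hB0le
    exact_mod_cast this
  -- the constant
  set Q : ℝ := (3 * ((2 * n + 5) * B0)) ^ (k + 1) with hQ
  obtain ⟨M, hM⟩ := exists_nat_gt (C0 * (8 * C1 * n) * Q * C / c)
  set L : ℕ := (2 * n + 5) * B0 * (M + 1) with hL
  set N : ℝ := ((M : ℝ) + 1) * Real.log b with hN
  have hM1 : (0 : ℝ) < (M : ℝ) + 1 := by positivity
  have hNpos : 0 < N := mul_pos hM1 (by linarith)
  have hNM : (M : ℝ) + 1 ≤ N := by
    rw [hN]
    nlinarith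
  obtain ⟨Ω, u, hu, hA⟩ := H ((idx n k L).image (scl 2) ∪ (idx n k M).image (scl b)) (by
    intro a ha
    rw [Finset.mem_union, Finset.mem_image, Finset.mem_image] at ha
    rcases ha with ⟨j, _, rfl⟩ | ⟨j, _, rfl⟩
    · exact scl_pos two_pos j
    · exact scl_pos hb0 j)
  have hE : ∀ j ∈ idx n k L, CellAt n k Ω u C c τ T (scl 2 j).1 (scl 2 j).2 := fun j hj =>
    hA _ (Finset.mem_union_left _ (Finset.mem_image_of_mem _ hj))
  have hMc : ∀ j ∈ idx n k M, CellAt n k Ω u C c τ T (scl b j).1 (scl b j).2 := fun j hj =>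
    hA _ (Finset.mem_union_right _ (Finset.mem_image_of_mem _ hj))
  have hSC : SC Ω u := hu.toSC
  set Z : Set (En n) := ⋃ j ∈ idx n k L, cell k Ω u 1 2 (scl 2 j).1 (scl 2 j).2 with hZ
  have hZc : IsCompact Z := (idx n k L).isCompact_biUnion fun j hj => (hE j hj).cptE
  have hZP : Z ⊆ OmP k Ω u := by
    intro x hx
    rw [hZ] at hx
    simp only [Set.mem_iUnion] at hx
    obtain ⟨j, _, hx1, hx2, _, hx4⟩ := hx
    have hp := scl_pos (b := 2) two_pos j
    exact ⟨hx1, by linarith [hp.2], fun i hi => by linarith [hp.1 i, (hx4 i hi).1]⟩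
  have hZB : ∀ x ∈ Z, 0 < Bf k u x := by
    intro x hx
    rw [hZ] at hx
    simp only [Set.mem_iUnion] at hx
    obtain ⟨j, hj, hx⟩ := hx
    exact (hE j hj).posE x hx
  have hlog2 := Real.log_two_gt_d9
  have hLN : ((n : ℝ) + 2) * N < L * Real.log 2 := by
    have e1 : N ≤ B0 * ((M : ℝ) + 1) := by
      rw [hN, mul_comm]
      exact mul_le_mul_of_nonneg_right hB0le hM1.le
    have e2 : (L : ℝ) = (2 * n + 5) * (B0 * ((M : ℝ) + 1)) := by
      rw [hL]
      push_cast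
      ring
    have e3 : (0 : ℝ) < B0 * ((M : ℝ) + 1) := by positivity
    have e4 : (n : ℝ) + 2 < (2 * n + 5) * Real.log 2 := by
      have hn0 : (0 : ℝ) ≤ n := Nat.cast_nonneg n
      nlinarith
    calc ((n : ℝ) + 2) * N ≤ ((n : ℝ) + 2) * (B0 * ((M : ℝ) + 1)) :=
          mul_le_mul_of_nonneg_left e1 (by positivity)
      _ < (2 * n + 5) * Real.log 2 * (B0 * ((M : ℝ) + 1)) := mul_lt_mul_of_pos_right e4 e3
      _ = L * Real.log 2 := by rw [e2]; ring
  have hΦZ : ∀ x ∈ OmP k Ω u, x ∉ Z → Φ (FL k u x / N ^ 2) = 0 := by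
    intro x hx hxZ
    refine hΦ0 _ ?_
    by_contra hlt
    push Not at hlt
    refine hxZ ?_
    have hF : FL k u x ≤ (((n : ℝ) + 2) * N) ^ 2 := by
      have h1 : FL k u x < 2 * ((n : ℝ) + 1) * N ^ 2 := by
        rwa [div_lt_iff₀ (by positivity)] at hlt
      have hn0 : (0 : ℝ) ≤ n := Nat.cast_nonneg n
      have h2 : 2 * ((n : ℝ) + 1) ≤ ((n : ℝ) + 2) ^ 2 := by nlinarith
      have h3 := mul_le_mul_of_nonneg_right h2 (sq_nonneg N)
      rw [mul_pow]
      linarith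
    obtain ⟨j, hj, hxj⟩ := exists_cell (B := ((n : ℝ) + 2) * N) (by positivity) hx hF hLN
    rw [hZ]
    simp only [Set.mem_iUnion]
    exact ⟨j, hj, hxj⟩
  set η := etaF k Ω u Φ N with hη
  have hηsm : ContDiff ℝ ∞ η := by
    refine H338.contDiff_indicator (isOpen_OmP hSC) hZc.isClosed hZP ?_ hΦZ
    intro x hx
    refine ContDiffAt.contDiffWithinAt ?_
    exact hΦ.contDiffAt.comp x
      ((contDiffAt_FL (sc_cda hSC hx.1) hx.2.1 hx.2.2).div_const _)
  have hη0 : ∀ x, x ∉ Z → η x = 0 := by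
    intro x hx
    by_cases hxP : x ∈ OmP k Ω u
    · rw [hη, etaF, Set.indicator_of_mem hxP]
      exact hΦZ x hxP hx
    · rw [hη, etaF, Set.indicator_of_notMem hxP]
  have hcs : HasCompactSupport η := HasCompactSupport.intro hZc hη0
  have hts : tsupport η ⊆ Z := by
    refine closure_minimal ?_ hZc.isClosed
    intro x hx
    by_contra hxZ
    exact hx (hη0 x hxZ)
  have hη1 : ∀ j ∈ idx n k M, ∀ x ∈ cell k Ω u τ T (scl b j).1 (scl b j).2, η x = 1 := by
    intro j hj x hx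
    obtain ⟨h1, h2⟩ := FL_le_of_cell hb1 h1b hTb' hτ hj hx
    rw [hη, etaF, Set.indicator_of_mem h1]
    refine hΦ1 _ (div_nonneg (FL_nonneg u x) (sq_nonneg _)) ?_
    rw [div_le_iff₀ (by positivity)]
    exact h2
  have hgr0 : ∀ x, x ∉ Z → gr η x = 0 := by
    intro x hx
    have hev : η =ᶠ[𝓝 x] fun _ => (0 : ℝ) := by
      filter_upwards [hZc.isClosed.isOpen_compl.mem_nhds hx] with y hy
      exact hη0 y hy
    funext i
    simp [gr, pd, hev.fderiv_eq]
  have hK : 0 ≤ 8 * C1 * n / N ^ 2 := by positivity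
  have hup := upper_bound (η := η) (K := 8 * C1 * n / N ^ 2) hSC hK hE (by
      intro x hx
      refine hgr0 x ?_
      rw [hZ]
      simp only [Set.mem_iUnion, not_exists]
      exact hx) (by
      intro j hj x hx
      have hp := scl_pos (b := 2) two_pos j
      have hxZ : x ∈ Z := by
        rw [hZ]
        simp only [Set.mem_iUnion]
        exact ⟨j, hj, hx⟩
      exact ip_etaF_le hn1 hSC hΦ hΦd hNpos (hZP hxZ) hp.2 hp.1 (by linarith [hx.2.1])
        (fun i hi => by linarith [(hx.2.2.2 i hi).1]))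
  have hlow := lower_bound (η := η) hSC hb1 hTb hτ hMc hηsm.continuous hZc
    (fun x hx => (hZP hx).1) hZB hη0 hη1
  have hs := hstar Ω u η hu.toAMLoc hηsm hcs (fun x hx => (hZP (hts hx)).1)
    (fun x hx => hZB x (hts hx))
  rw [card_idx hkn] at hup hlow
  have h1 : ((2 * M + 1) ^ (k + 1) : ℕ) * c ≤
      C0 * (((2 * L + 1) ^ (k + 1) : ℕ) * (8 * C1 * n / N ^ 2 * C)) :=
    hlow.trans (hs.trans (mul_le_mul_of_nonneg_left hup hC0.le))
  -- simplify the counting
  have e1 : ((M : ℝ) + 1) ^ (k + 1) ≤ (((2 * M + 1) ^ (k + 1) : ℕ) : ℝ) := by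
    push_cast
    exact pow_le_pow_left₀ hM1.le (by linarith [(Nat.cast_nonneg M : (0 : ℝ) ≤ M)]) _
  have e2 : (((2 * L + 1) ^ (k + 1) : ℕ) : ℝ) ≤ Q * ((M : ℝ) + 1) ^ (k + 1) := by
    push_cast
    rw [hQ, ← mul_pow]
    refine pow_le_pow_left₀ (by positivity) ?_ _
    have hL1 : (1 : ℝ) ≤ L := by
      have : 1 ≤ L := by
        rw [hL]
        exact Nat.one_le_iff_ne_zero.mpr (by positivity)
      exact_mod_cast this
    have hLc : (L : ℝ) = (2 * n + 5) * B0 * ((M : ℝ) + 1) := by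
      rw [hL]
      push_cast
      ring
    calc 2 * (L : ℝ) + 1 ≤ 3 * L := by linarith
      _ = 3 * ((2 * n + 5) * B0) * ((M : ℝ) + 1) := by rw [hLc]; ring
  have e3 : 8 * C1 * n / N ^ 2 * C ≤ 8 * C1 * n / ((M : ℝ) + 1) ^ 2 * C := by
    refine mul_le_mul_of_nonneg_right ?_ hC.le
    refine div_le_div_of_nonneg_left (by positivity) (by positivity) ?_
    exact pow_le_pow_left₀ hM1.le hNM 2
  have hQ0 : 0 ≤ Q := by positivity
  have hp : 0 < ((M : ℝ) + 1) ^ (k + 1) := by positivity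
  have h2 : ((M : ℝ) + 1) ^ (k + 1) * c ≤
      C0 * (Q * ((M : ℝ) + 1) ^ (k + 1) * (8 * C1 * n / ((M : ℝ) + 1) ^ 2 * C)) := by
    calc ((M : ℝ) + 1) ^ (k + 1) * c ≤ (((2 * M + 1) ^ (k + 1) : ℕ) : ℝ) * c :=
          mul_le_mul_of_nonneg_right e1 hc.le
      _ ≤ C0 * ((((2 * L + 1) ^ (k + 1) : ℕ) : ℝ) * (8 * C1 * n / N ^ 2 * C)) := h1
      _ ≤ C0 * (Q * ((M : ℝ) + 1) ^ (k + 1) * (8 * C1 * n / ((M : ℝ) + 1) ^ 2 * C)) := by
          refine mul_le_mul_of_nonneg_left ?_ hC0.le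
          exact mul_le_mul e2 e3 (by positivity) (by positivity)
  have h3 : c * ((M : ℝ) + 1) ^ 2 ≤ C0 * (8 * C1 * n) * Q * C := by
    have h4 : ((M : ℝ) + 1) ^ (k + 1) * (c * ((M : ℝ) + 1) ^ 2) ≤
        ((M : ℝ) + 1) ^ (k + 1) * (C0 * (8 * C1 * n) * Q * C) := by
      have h5 := mul_le_mul_of_nonneg_right h2 (sq_nonneg ((M : ℝ) + 1))
      have h6 : C0 * (Q * ((M : ℝ) + 1) ^ (k + 1) * (8 * C1 * n / ((M : ℝ) + 1) ^ 2 * C)) *
          ((M : ℝ) + 1) ^ 2 = ((M : ℝ) + 1) ^ (k + 1) * (C0 * (8 * C1 * n) * Q * C) := by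
        field_simp
      rw [h6] at h5
      linarith
    exact le_of_mul_le_mul_left h4 hp
  have h4 : C0 * (8 * C1 * n) * Q * C < c * M := by
    rwa [div_lt_iff₀ hc, mul_comm (M : ℝ) c] at hM
  have h5 : c * (M : ℝ) ≤ c * ((M : ℝ) + 1) ^ 2 := by
    refine mul_le_mul_of_nonneg_left ?_ hc.le
    nlinarith [(Nat.cast_nonneg M : (0 : ℝ) ≤ M)]
  linarith

/-- F4. No wedge, from (star), the rescaling of wedges and the cell estimates. -/
theorem noWedgeOf_of (n k : ℕ) (hstar : 1 ≤ k → k ≤ n → n ≤ 9 → Stmt_star n k)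
    (hcells : 1 ≤ k → k ≤ n → Stmt_cells n k) : Stmt_noWedgeOf n k := by
  rintro _ hn9 hk1 hkn hP1 hP2 ⟨K, hK⟩
  obtain ⟨C, c, τ, T, hC, hc, hτ, hτ1, hT, H⟩ := hcells hk1 hkn K hK hP1 hP2
  exact count n k hk1 hkn (hstar hk1 hkn hn9) C c τ T hC hc hτ hτ1 hT H

end Vale.Agent.P252.R
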